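import Crest.Agent.R246.Defs

/-!
Row 246, block C1: toolkit for the Gaussian kernel `gk`, traces and `divT`.
-/

set_option autoImplicit false
set_option linter.unusedSectionVars false

open MeasureTheory Metric Filter Topology Set Module
open scoped RealInnerProductSpace ENNReal ContDiff Real

namespace Crest.Agent.R246.C1

variable {E : Type} [NormedAddCommGroup E] [InnerProductSpace ℝ E] [FiniteDimensional ℝ E]

/-! ### traces -/

theorem trc_add (A B : E →L[ℝ] E) : trc (A + B) = trc A + trc B := by simp [trc]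

theorem trc_smul (c : ℝ) (A : E →L[ℝ] E) : trc (c • A) = c * trc A := by simp [trc]

theorem trc_id : trc (ContinuousLinearMap.id ℝ E) = finrank ℝ E := by simp [trc]

theorem trc_smulRight (f : E →L[ℝ] ℝ) (a : E) : trc (f.smulRight a) = f a := by
  have : ((f.smulRight a : E →L[ℝ] E) : E →ₗ[ℝ] E) = (f : E →ₗ[ℝ] ℝ).smulRight a := rfl
  rw [trc, this, LinearMap.trace_smulRight]; rfl

theorem trc_rk (a ν : E) : trc (rk a ν) = ⟪ν, a⟫ := by rw [rk, trc_smulRight]; rfl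

theorem rk_apply (a ν v : E) : rk a ν v = ⟪ν, v⟫ • a := rfl

theorem abs_trc_le (A : E →L[ℝ] E) : |trc A| ≤ finrank ℝ E * ‖A‖ := by
  rw [trc, LinearMap.trace_eq_sum_inner _ (stdOrthonormalBasis ℝ E)]
  refine (Finset.abs_sum_le_sum_abs _ _).trans ?_
  have h : ∀ i ∈ Finset.univ, |⟪stdOrthonormalBasis ℝ E i,
      (A : E →ₗ[ℝ] E) (stdOrthonormalBasis ℝ E i)⟫| ≤ ‖A‖ := fun i _ => by
    refine (abs_real_inner_le_norm _ _).trans ?_
    have h1 := A.le_opNorm (stdOrthonormalBasis ℝ E i)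
    rw [(stdOrthonormalBasis ℝ E).orthonormal.1 i] at h1 ⊢
    simpa using h1
  simpa using Finset.sum_le_card_nsmul _ _ _ h

theorem continuous_trc : Continuous (trc : (E →L[ℝ] E) → ℝ) :=
  ((LinearMap.trace ℝ E).comp (ContinuousLinearMap.coeLM ℝ)).continuous_of_finiteDimensional

/-! ### tangential divergence -/

theorem abs_divT_le (X : E → E) {z : E × E} (hz : ‖z.2‖ ≤ 1) :
    |divT X z| ≤ (finrank ℝ E + 1) * ‖fderiv ℝ X z.1‖ := by
  have h1 := abs_trc_le (fderiv ℝ X z.1)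
  have h2 := abs_real_inner_le_norm z.2 (fderiv ℝ X z.1 z.2)
  have h3 := (fderiv ℝ X z.1).le_opNorm z.2
  have h4 := norm_nonneg (fderiv ℝ X z.1)
  have h5 := norm_nonneg z.2
  have h6 : ‖z.2‖ * ‖fderiv ℝ X z.1 z.2‖ ≤ ‖fderiv ℝ X z.1‖ := by
    calc _ ≤ 1 * (‖fderiv ℝ X z.1‖ * 1) := by gcongr; exact h3.trans (by gcongr)
      _ = _ := by ring
  refine (abs_sub _ _).trans ?_
  linarith

theorem continuous_divT {X : E → E} (hX : ContDiff ℝ 1 X) : Continuous (divT X) := by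
  have h := (hX.continuous_fderiv one_ne_zero).comp (continuous_fst (X := E) (Y := E))
  exact (continuous_trc.comp h).sub (continuous_snd.inner (h.clm_apply continuous_snd))

/-- product rule -/
theorem divT_smul {f : E → ℝ} {X : E → E} {z : E × E} {f' : E →L[ℝ] ℝ} (hf : HasFDerivAt f f' z.1)
    (hX : DifferentiableAt ℝ X z.1) :
    divT (fun y => f y • X y) z = f z.1 * divT X z + (f' (X z.1) - f' z.2 * ⟪z.2, X z.1⟫) := by
  have h := (hf.smul hX.hasFDerivAt).fderiv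
  have e : (fun y => f y • X y) = f • X := rfl
  simp only [divT, e, h, trc_add, trc_smul, trc_smulRight, add_apply,
    smul_apply, ContinuousLinearMap.smulRight_apply, inner_add_right,
    inner_smul_right]
  ring

theorem divT_aff (A : E →L[ℝ] E) (c : E) (z : E × E) :
    divT (fun y => A y + c) z = trc A - ⟪z.2, A z.2⟫ := by
  rw [divT, (A.hasFDerivAt.add_const c).fderiv]

/-! ### the Gaussian kernel -/

theorem gk_pos (d : ℕ) (p : E) {r : ℝ} (hr : 0 < r) (y : E) : 0 < gk d p r y := by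
  have := Real.pi_pos
  unfold gk; positivity

theorem contDiff_gk (d : ℕ) (p : E) (r : ℝ) {n : WithTop ℕ∞} : ContDiff ℝ n (gk d p r) := by
  unfold gk
  exact contDiff_const.mul (((contDiff_id.sub contDiff_const).norm_sq ℝ).neg.div_const _).exp

theorem continuous_gk (d : ℕ) (p : E) (r : ℝ) : Continuous (gk d p r) :=
  (contDiff_gk d p r (n := 0)).continuous

theorem continuous_gk₂ (d : ℕ) (r : ℝ) : Continuous fun x : E × E => gk d x.1 r x.2 := by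
  unfold gk; fun_prop

theorem hasFDerivAt_gk (d : ℕ) (p : E) (r : ℝ) (y : E) :
    HasFDerivAt (gk d p r) ((-(gk d p r y / r ^ 2)) • innerSL ℝ (y - p)) y := by
  have h := ((((hasFDerivAt_id y).sub_const p).norm_sq.neg.mul_const
    (2 * r ^ 2)⁻¹).exp).const_mul ((√(2 * π) * r)⁻¹ ^ d)
  refine (h.congr_fderiv ?_).congr_of_eventuallyEq
    (Eventually.of_forall fun x => by simp [gk, div_eq_mul_inv])
  ext v
  simp [gk, div_eq_mul_inv]
  ring

theorem gk_sub (d : ℕ) (p : E) (r : ℝ) (y : E) : gk d p r y = gk d 0 r (y - p) := by simp [gk]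

theorem gk_smul (d : ℕ) (p : E) (r : ℝ) (y : E) {t : ℝ} (ht : 0 < t) :
    gk d (t • p) (t * r) (t • y) = t⁻¹ ^ d * gk d p r y := by
  have h : ‖t • y - t • p‖ ^ 2 = t ^ 2 * ‖y - p‖ ^ 2 := by
    rw [← smul_sub, norm_smul, mul_pow, Real.norm_eq_abs, sq_abs]
  have h2 : -(t ^ 2 * ‖y - p‖ ^ 2) / (2 * (t * r) ^ 2) = -‖y - p‖ ^ 2 / (2 * r ^ 2) := by
    by_cases hr : r = 0
    · simp [hr]
    field_simp
  have h3 : (√(2 * π) * (t * r))⁻¹ = t⁻¹ * (√(2 * π) * r)⁻¹ := by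
    rw [← mul_inv]; congr 1; ring
  rw [gk, gk, h, h2, h3, mul_pow, mul_assoc]

/-- polynomial factors and centres are absorbed by doubling the scale -/
theorem gk_dom (d k : ℕ) {a : ℝ} (b M : ℝ) (ha : 0 < a) : ∃ K : ℝ, 0 ≤ K ∧ ∀ p : E, ‖p‖ ≤ M →
    ∀ r, a ≤ r → r ≤ b → ∀ y, (1 + ‖y‖) ^ k * gk d p r y ≤ K * gk d 0 (2 * b) y := by
  have hpi : 0 < √(2 * π) := Real.sqrt_pos.2 (by have := Real.pi_pos; positivity)
  by_cases hb : 0 < b
  swap
  · exact ⟨0, le_rfl, fun p _ r h1 h2 => absurd (ha.trans_le (h1.trans h2)) hb⟩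
  refine ⟨(√(2 * π) * a)⁻¹ ^ d * (√(2 * π) * (2 * b)) ^ d *
    Real.exp (M ^ 2 / b ^ 2 + 2 * k ^ 2 * b ^ 2), by positivity, fun p hp r h1 h2 y => ?_⟩
  have hr : 0 < r := ha.trans_le h1
  have e1 : (1 + ‖y‖) ^ k ≤ Real.exp (k * ‖y‖) := by
    rw [Real.exp_nat_mul]
    exact pow_le_pow_left₀ (by positivity) (by linarith [Real.add_one_le_exp ‖y‖]) k
  have e2 : (√(2 * π) * r)⁻¹ ^ d ≤ (√(2 * π) * a)⁻¹ ^ d := by gcongr
  have e3 : 2 / 3 * ‖y‖ ^ 2 - 2 * M ^ 2 ≤ ‖y - p‖ ^ 2 := by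
    have h3 : ‖y‖ ≤ ‖y - p‖ + M := by
      have := norm_add_le (y - p) p; rw [sub_add_cancel] at this; linarith
    have h4 : ‖y‖ ^ 2 ≤ (‖y - p‖ + M) ^ 2 := pow_le_pow_left₀ (norm_nonneg _) h3 2
    nlinarith [sq_nonneg (‖y - p‖ - 2 * M)]
  have e4 : k * ‖y‖ + -‖y - p‖ ^ 2 / (2 * r ^ 2) ≤
      (M ^ 2 / b ^ 2 + 2 * k ^ 2 * b ^ 2) + -‖y - 0‖ ^ 2 / (2 * (2 * b) ^ 2) := by
    have h5 : -‖y - p‖ ^ 2 / (2 * r ^ 2) ≤ -‖y - p‖ ^ 2 / (2 * b ^ 2) := by
      rw [neg_div, neg_div, neg_le_neg_iff]; gcongr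
    have h6 : -‖y - p‖ ^ 2 / (2 * b ^ 2) ≤ -(2 / 3 * ‖y‖ ^ 2 - 2 * M ^ 2) / (2 * b ^ 2) := by
      gcongr
    have h7 : k * ‖y‖ ≤ 2 * k ^ 2 * b ^ 2 + ‖y‖ ^ 2 / (8 * b ^ 2) := by
      have : 2 * k ^ 2 * b ^ 2 + ‖y‖ ^ 2 / (8 * b ^ 2) - k * ‖y‖ =
          (4 * k * b ^ 2 - ‖y‖) ^ 2 / (8 * b ^ 2) := by field_simp; ring
      have h8 : 0 ≤ (4 * k * b ^ 2 - ‖y‖) ^ 2 / (8 * b ^ 2) := by positivity
      linarith
    have h9 : -(2 / 3 * ‖y‖ ^ 2 - 2 * M ^ 2) / (2 * b ^ 2) =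
        M ^ 2 / b ^ 2 - ‖y‖ ^ 2 / b ^ 2 / 3 := by field_simp; ring
    have h10 : -‖y - 0‖ ^ 2 / (2 * (2 * b) ^ 2) = -(‖y‖ ^ 2 / b ^ 2 / 8) := by
      rw [sub_zero]; field_simp; ring
    have h11 : ‖y‖ ^ 2 / (8 * b ^ 2) = ‖y‖ ^ 2 / b ^ 2 / 8 := by field_simp
    have h12 : 0 ≤ ‖y‖ ^ 2 / b ^ 2 := by positivity
    linarith
  have e5 : (√(2 * π) * (2 * b)) ^ d * (√(2 * π) * (2 * b))⁻¹ ^ d = 1 := by
    rw [← mul_pow, mul_inv_cancel₀ (by positivity), one_pow]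
  calc (1 + ‖y‖) ^ k * gk d p r y
      ≤ Real.exp (k * ‖y‖) * ((√(2 * π) * a)⁻¹ ^ d * Real.exp (-‖y - p‖ ^ 2 / (2 * r ^ 2))) := by
        unfold gk; gcongr
    _ = (√(2 * π) * a)⁻¹ ^ d * Real.exp (k * ‖y‖ + -‖y - p‖ ^ 2 / (2 * r ^ 2)) := by
        rw [Real.exp_add]; ring
    _ ≤ (√(2 * π) * a)⁻¹ ^ d * Real.exp ((M ^ 2 / b ^ 2 + 2 * k ^ 2 * b ^ 2) +
          -‖y - 0‖ ^ 2 / (2 * (2 * b) ^ 2)) := by gcongr
    _ = _ := by
        rw [Real.exp_add, gk]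
        linear_combination (-((√(2 * π) * a)⁻¹ ^ d * Real.exp (M ^ 2 / b ^ 2 + 2 * k ^ 2 * b ^ 2) *
          Real.exp (-‖y - 0‖ ^ 2 / (2 * (2 * b) ^ 2)))) * e5

/-- single centre and scale -/
theorem gk_dom₁ (d k : ℕ) (p : E) {r : ℝ} (hr : 0 < r) : ∃ K : ℝ, 0 ≤ K ∧
    ∀ y, (1 + ‖y‖) ^ k * gk d p r y ≤ K * gk d 0 (2 * r) y := by
  obtain ⟨K, hK, h⟩ := gk_dom (E := E) d k r ‖p‖ hr
  exact ⟨K, hK, h p le_rfl r le_rfl le_rfl⟩

variable [MeasurableSpace E] [BorelSpace E]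

theorem th_fst (d : ℕ) (V : Measure (E × E)) (p : E) (r : ℝ) :
    th d V.fst p r = ∫ z, gk d p r z.1 ∂V :=
  integral_map measurable_fst.aemeasurable (continuous_gk d p r).aestronglyMeasurable

theorem integrable_fst_iff {V : Measure (E × E)} {f : E → ℝ} (hf : Continuous f) :
    Integrable f V.fst ↔ Integrable (fun z : E × E => f z.1) V :=
  integrable_map_measure hf.aestronglyMeasurable measurable_fst.aemeasurable

theorem integral_fst (V : Measure (E × E)) {f : E → ℝ} (hf : Continuous f) :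
    ∫ y, f y ∂V.fst = ∫ z, f z.1 ∂V :=
  integral_map measurable_fst.aemeasurable hf.aestronglyMeasurable

theorem th_nonneg (d : ℕ) (μ : Measure E) (p : E) {r : ℝ} (hr : 0 < r) : 0 ≤ th d μ p r :=
  integral_nonneg fun y => (gk_pos d p hr y).le

theorem SV0.le_one {d : ℕ} {V : Measure (E × E)} (hV : SV0 d V) : ∀ᵐ z ∂V, ‖z.2‖ ≤ 1 :=
  hV.unit.mono fun _ h => h.le

theorem SV0.integ' {d : ℕ} {V : Measure (E × E)} (hV : SV0 d V) (p : E) {r : ℝ} (hr : 0 < r) :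
    Integrable (fun z : E × E => gk d p r z.1) V :=
  (integrable_fst_iff (continuous_gk d p r)).1 (hV.integ p r hr)

/-- Gaussian times a function of polynomial growth is integrable -/
theorem integrable_gk_mul {d : ℕ} {V : Measure (E × E)} (hV : SV0 d V) (p : E) {r : ℝ}
    (hr : 0 < r) {f : E × E → ℝ} (hf : Continuous f) (C : ℝ) (k : ℕ)
    (h : ∀ z : E × E, ‖z.2‖ ≤ 1 → |f z| ≤ C * (1 + ‖z.1‖) ^ k) :
    Integrable (fun z : E × E => gk d p r z.1 * f z) V := by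
  obtain ⟨K, -, hK⟩ := gk_dom₁ d k p hr
  refine ((SV0.integ' hV 0 (r := 2 * r) (by positivity)).const_mul (|C| * K)).mono'
    (((continuous_gk d p r).comp continuous_fst).mul hf).aestronglyMeasurable ?_
  filter_upwards [SV0.le_one hV] with z hz
  have h1 := gk_pos d p hr z.1
  rw [Real.norm_eq_abs, abs_mul, abs_of_pos h1, mul_assoc]
  calc gk d p r z.1 * |f z| ≤ gk d p r z.1 * (|C| * (1 + ‖z.1‖) ^ k) := by
        gcongr; exact (h z hz).trans (by gcongr; exact le_abs_self C)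
    _ = |C| * ((1 + ‖z.1‖) ^ k * gk d p r z.1) := by ring
    _ ≤ _ := mul_le_mul_of_nonneg_left (hK z.1) (abs_nonneg C)

/-- a measure integrating a Gaussian is finite on compact sets -/
theorem finiteOnCompacts_of_gk {d : ℕ} {μ : Measure E} {p : E} {r : ℝ} (hr : 0 < r)
    (h : Integrable (gk d p r) μ) : IsFiniteMeasureOnCompacts μ := by
  refine ⟨fun K hK => ?_⟩
  rcases K.eq_empty_or_nonempty with rfl | hne
  · simp
  obtain ⟨x, -, hx⟩ := hK.exists_isMinOn hne (continuous_gk d p r).continuousOn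
  exact (measure_mono fun y hy => hx hy).trans_lt (h.measure_ge_lt_top (gk_pos d p hr x))

theorem SV0.sigmaFinite {d : ℕ} {V : Measure (E × E)} (hV : SV0 d V) : SigmaFinite V := by
  have := finiteOnCompacts_of_gk one_pos (hV.integ 0 1 one_pos)
  exact SigmaFinite.of_map V measurable_fst.aemeasurable (inferInstanceAs (SigmaFinite V.fst))

end Crest.Agent.R246.C1
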