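import Crest.Agent.R246.C1.Stat

/-!
Row 246, block C1: compactness along an ultrafilter (Prokhorov's theorem for the measures weighted
by a Gaussian).
-/

set_option autoImplicit false
set_option linter.unusedSectionVars false

open MeasureTheory Metric Filter Topology Set Module
open scoped RealInnerProductSpace ENNReal NNReal ContDiff Real

namespace Crest.Agent.R246.C1

variable {E : Type} [NormedAddCommGroup E] [InnerProductSpace ℝ E] [FiniteDimensional ℝ E]

theorem gk_tail (d : ℕ) {r : ℝ} (hr : 0 < r) : ∃ K : ℝ, 0 ≤ K ∧ ∀ (n : ℕ) (y : E), n ≤ ‖y‖ →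
    gk d 0 r y ≤ K / (n + 1) * gk d 0 (2 * r) y := by
  obtain ⟨K, hK, h⟩ := gk_dom₁ d 1 (0 : E) hr
  refine ⟨K, hK, fun n y hy => ?_⟩
  have h1 := h y
  have h2 := gk_pos d 0 hr y
  rw [div_mul_eq_mul_div, le_div_iff₀ (by positivity)]
  rw [pow_one] at h1
  nlinarith

theorem hasCompactSupport_prod {a b : E → ℝ} (ha : HasCompactSupport a) (hb : HasCompactSupport b) :
    HasCompactSupport fun z : E × E => a z.1 * b z.2 := by
  refine HasCompactSupport.intro (ha.isCompact.prod hb.isCompact) fun z hz => ?_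
  by_cases h : z.1 ∈ tsupport a
  · rw [image_eq_zero_of_notMem_tsupport fun h' => hz ⟨h, h'⟩, mul_zero]
  · rw [image_eq_zero_of_notMem_tsupport h, zero_mul]

variable [MeasurableSpace E] [BorelSpace E]

theorem withDensity_le {α : Type} [MeasurableSpace α] {μ : Measure α} {s : Set α}
    (hs : MeasurableSet s) {g h : α → ℝ} (hi : Integrable h μ) (h0 : ∀ z, 0 ≤ h z)
    (hle : ∀ᵐ z ∂μ, z ∈ s → g z ≤ h z) :
    μ.withDensity (fun z => ENNReal.ofReal (g z)) s ≤ ENNReal.ofReal (∫ z, h z ∂μ) := by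
  rw [withDensity_apply _ hs, ofReal_integral_eq_lintegral_ofReal hi (Eventually.of_forall h0)]
  refine le_trans (setLIntegral_mono_ae' hs (hle.mono fun z hz hz' => ?_))
    (setLIntegral_le_lintegral _ _)
  exact ENNReal.ofReal_le_ofReal (hz hz')

/-- vague limit along an ultrafilter -/
theorem exists_vague (d : ℕ) {ι : Type} (𝒰 : Ultrafilter ι) (V : ι → Measure (E × E))
    (h1 : ∀ j, ∀ᵐ z ∂V j, ‖z.2‖ ≤ 1)
    (h2 : ∀ r, 0 < r → ∃ Λ : ℝ, ∀ᶠ j in (𝒰 : Filter ι),
      Integrable (gk d 0 r) (V j).fst ∧ th d (V j).fst 0 r ≤ Λ) :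
    ∃ V₀ : Measure (E × E), (∀ᵐ z ∂V₀, ‖z.2‖ ≤ 1) ∧ ∀ ψ : E × E → ℝ, Continuous ψ →
      HasCompactSupport ψ → Integrable ψ V₀ ∧
        Tendsto (fun j => ∫ z, ψ z ∂V j) (𝒰 : Filter ι) (𝓝 (∫ z, ψ z ∂V₀)) := by
  classical
  obtain ⟨Λ₁, hΛ₁⟩ := h2 1 one_pos
  obtain ⟨Λ₂, hΛ₂⟩ := h2 (2 * 1) (by norm_num)
  obtain ⟨K, hK0, hK⟩ := gk_tail (E := E) d one_pos
  have hg : Continuous fun z : E × E => gk d 0 1 z.1 := (continuous_gk d 0 1).comp continuous_fst
  have hpos : ∀ z : E × E, 0 < gk d 0 1 z.1 := fun z => gk_pos d 0 one_pos z.1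
  let ν : ι → FiniteMeasure (E × E) := fun j =>
    if h : Integrable (fun z : E × E => gk d 0 1 z.1) (V j) then
      ⟨(V j).withDensity fun z => ENNReal.ofReal (gk d 0 1 z.1),
        isFiniteMeasure_withDensity_ofReal h.2⟩ else 0
  have hν : ∀ᶠ j in (𝒰 : Filter ι), (ν j : Measure (E × E)) =
      (V j).withDensity fun z => ENNReal.ofReal (gk d 0 1 z.1) := by
    filter_upwards [hΛ₁] with j hj
    simp only [ν, dif_pos ((integrable_fst_iff (continuous_gk d 0 1)).1 hj.1)]
    rfl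
  have hu : Tendsto (fun n : ℕ => (K / (n + 1) * Λ₂).toNNReal) atTop (𝓝 0) := by
    have := (tendsto_const_div_atTop_nhds_zero_nat K).comp (tendsto_add_atTop_nat 1)
    have h3 : Tendsto (fun n : ℕ => K / (n + 1) * Λ₂) atTop (𝓝 0) := by
      simpa [Function.comp_def] using this.mul_const Λ₂
    simpa using tendsto_real_toNNReal h3
  have hc := isCompact_setOfPred_finiteMeasure_mass_le_compl_isCompact_le
    (K := fun n : ℕ => closedBall (0 : E) n ×ˢ closedBall (0 : E) 1) Λ₁.toNNReal hu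
    (fun n => (isCompact_closedBall _ _).prod (isCompact_closedBall _ _)) (Or.inl inferInstance)
  obtain ⟨ν₀, hν₀, hlim⟩ := hc.ultrafilter_le_nhds (𝒰.map ν) (by
    rw [Ultrafilter.coe_map, le_principal_iff, mem_map]
    filter_upwards [hν, hΛ₁, hΛ₂] with j e j1 j2
    refine ⟨?_, fun n => ?_⟩
    · rw [← ENNReal.coe_le_coe, FiniteMeasure.ennreal_mass, e]
      refine (withDensity_le MeasurableSet.univ
        ((integrable_fst_iff (continuous_gk d 0 1)).1 j1.1) (fun z => (hpos z).le)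
        (Eventually.of_forall fun z _ => le_rfl)).trans (ENNReal.ofReal_le_ofReal ?_)
      rw [← th_fst]; exact j1.2
    · rw [← ENNReal.coe_le_coe, FiniteMeasure.ennreal_coeFn_eq_coeFn_toMeasure, e]
      refine (withDensity_le (measurableSet_closedBall.prod measurableSet_closedBall).compl
        (((integrable_fst_iff (continuous_gk d 0 _)).1 j2.1).const_mul (K / (n + 1)))
        (fun z => by have := gk_pos d 0 (r := 2 * 1) (by norm_num) z.1; positivity)
        ((h1 j).mono fun z hz hz' => hK n z.1 ?_)).trans (ENNReal.ofReal_le_ofReal ?_)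
      · by_contra h
        exact hz' ⟨mem_closedBall_zero_iff.2 (not_le.1 h).le, mem_closedBall_zero_iff.2 hz⟩
      · rw [integral_const_mul, ← th_fst]
        exact mul_le_mul_of_nonneg_left j2.2 (by positivity))
  have hm : Measurable fun z : E × E => ENNReal.ofReal (gk d 0 1 z.1)⁻¹ :=
    hg.measurable.inv.ennreal_ofReal
  refine ⟨(ν₀ : Measure (E × E)).withDensity fun z => ENNReal.ofReal (gk d 0 1 z.1)⁻¹, ?_,
    fun ψ c1 c2 => ?_⟩
  · refine withDensity_absolutelyContinuous _ _ ?_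
    change (ν₀ : Measure (E × E)) {z : E × E | ‖z.2‖ ≤ 1}ᶜ = 0
    rw [← FiniteMeasure.null_iff_toMeasure_null]
    refine le_antisymm (ge_of_tendsto' hu fun n => le_trans (ν₀.apply_mono ?_) (hν₀.2 n)) zero_le
    exact compl_subset_compl.2 fun z hz => mem_closedBall_zero_iff.1 hz.2
  · have c3 : Continuous fun z : E × E => (gk d 0 1 z.1)⁻¹ * ψ z :=
      (hg.inv₀ fun z => (hpos z).ne').mul c1
    have c4 : HasCompactSupport fun z : E × E => (gk d 0 1 z.1)⁻¹ * ψ z := c2.mul_left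
    have e : ∀ z : E × E, (ENNReal.ofReal (gk d 0 1 z.1)⁻¹).toReal • ψ z =
        (gk d 0 1 z.1)⁻¹ * ψ z := fun z => by
      rw [ENNReal.toReal_ofReal (inv_pos.2 (hpos z)).le, smul_eq_mul]
    rw [integrable_withDensity_iff_integrable_smul' hm
      (Eventually.of_forall fun y => ENNReal.ofReal_lt_top),
      integral_withDensity_eq_integral_toReal_smul hm
      (Eventually.of_forall fun y => ENNReal.ofReal_lt_top)]
    simp only [e]
    refine ⟨c3.integrable_of_hasCompactSupport c4, ?_⟩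
    refine ((FiniteMeasure.tendsto_iff_forall_integral_tendsto (μs := ν)
      (F := (𝒰 : Filter ι))).1 hlim (ofCompactSupport _ c3 c4)).congr' ?_
    filter_upwards [hν] with j hj
    rw [hj, integral_withDensity_eq_integral_toReal_smul hg.measurable.ennreal_ofReal
      (Eventually.of_forall fun y => ENNReal.ofReal_lt_top)]
    refine integral_congr_ae (Eventually.of_forall fun z => ?_)
    change _ • ((gk d 0 1 z.1)⁻¹ * ψ z) = _
    rw [ENNReal.toReal_ofReal (hpos z).le, smul_eq_mul, mul_inv_cancel_left₀ (hpos z).ne']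

theorem comp : StComp E := by
  intro d ι 𝒰 V h1 h2
  obtain ⟨V₀, h0, hV⟩ := exists_vague d 𝒰 V h1 h2
  obtain ⟨χ, -, -, c1, c2, c3, -, c5⟩ := exists_cut E
  have c1' : ∀ n, Continuous fun z : E × E => χ n z.1 := fun n =>
    (c1 n).continuous.comp continuous_fst
  have hcut : ∀ φ : E × E → ℝ, Continuous φ → ∀ n, Integrable (fun z => χ n z.1 * φ z) V₀ ∧
      Tendsto (fun j => ∫ z, χ n z.1 * φ z ∂V j) (𝒰 : Filter ι)
        (𝓝 (∫ z, χ n z.1 * φ z ∂V₀)) := fun φ hφ n => by
    have e : ∀ {W : Measure (E × E)}, (∀ᵐ z ∂W, ‖z.2‖ ≤ 1) →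
        (fun z => χ n z.1 * χ 1 z.2 * φ z) =ᵐ[W] fun z => χ n z.1 * φ z := fun h =>
      h.mono fun z hz => by simp only [c5 1 z.2 (by simpa using hz), mul_one]
    obtain ⟨a1, a2⟩ := hV (fun z => χ n z.1 * χ 1 z.2 * φ z)
      (((c1' n).mul ((c1 1).continuous.comp continuous_snd)).mul hφ)
      (hasCompactSupport_prod (c2 n) (c2 1)).mul_right
    rw [integral_congr_ae (e h0)] at a2
    exact ⟨a1.congr (e h0), a2.congr fun j => integral_congr_ae (e (h1 j))⟩
  have hint : ∀ r, 0 < r → Integrable (fun z : E × E => gk d 0 r z.1) V₀ := fun r hr => by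
    obtain ⟨Λ, hΛ⟩ := h2 r hr
    have hg : Continuous fun z : E × E => gk d 0 r z.1 := (continuous_gk d 0 r).comp continuous_fst
    have hpos : ∀ z : E × E, 0 < gk d 0 r z.1 := fun z => gk_pos d 0 hr z.1
    have b : ∀ n, ∫⁻ z, ‖χ n z.1 * gk d 0 r z.1‖ₑ ∂V₀ ≤ ENNReal.ofReal Λ := fun n => by
      obtain ⟨a1, a2⟩ := hcut _ hg n
      have a0 : ∀ z : E × E, 0 ≤ χ n z.1 * gk d 0 r z.1 := fun z =>
        mul_nonneg (c3 n _).1 (hpos z).le
      rw [← ofReal_integral_norm_eq_lintegral_enorm a1]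
      simp only [Real.norm_of_nonneg (a0 _)]
      refine ENNReal.ofReal_le_ofReal (le_of_tendsto a2 (hΛ.mono fun j hj => ?_))
      refine le_trans ?_ hj.2
      rw [th_fst]
      exact integral_mono_of_nonneg (Eventually.of_forall a0) ((integrable_fst_iff
        (continuous_gk d 0 r)).1 hj.1) (Eventually.of_forall fun z =>
          mul_le_of_le_one_left (hpos z).le (c3 n _).2)
    refine ⟨hg.aestronglyMeasurable, lt_of_le_of_lt ?_ (ENNReal.ofReal_lt_top (r := Λ))⟩
    have l : ∀ z : E × E, ‖gk d 0 r z.1‖ₑ =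
        liminf (fun n => ‖χ n z.1 * gk d 0 r z.1‖ₑ) atTop := fun z => by
      refine (Tendsto.liminf_eq (tendsto_const_nhds.congr' ?_)).symm
      filter_upwards [tendsto_natCast_atTop_atTop.eventually_ge_atTop ‖z.1‖] with n hn
      rw [c5 n _ hn, one_mul]
    simp only [l]
    exact (lintegral_liminf_le fun n => ((c1' n).mul hg).measurable.enorm).trans
      (liminf_le_of_frequently_le' (Frequently.of_forall b))
  refine ⟨V₀, h0, fun p r hr => ?_, fun φ K r hr hφ hK => ?_⟩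
  · obtain ⟨L, -, hL⟩ := gk_dom₁ d 0 p hr
    rw [integrable_fst_iff (continuous_gk d p r)]
    refine ((hint (2 * r) (by positivity)).const_mul L).mono'
      ((continuous_gk d p r).comp continuous_fst).aestronglyMeasurable
      (Eventually.of_forall fun z => ?_)
    rw [Real.norm_of_nonneg (gk_pos d p hr _).le]
    simpa using hL z.1
  obtain ⟨L, hL0, hL⟩ := gk_tail (E := E) d hr
  have r2 : 0 < 2 * r := by positivity
  have tail : ∀ (W : Measure (E × E)) (n : ℕ), (∀ᵐ z ∂W, ‖z.2‖ ≤ 1) →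
      Integrable (fun z : E × E => gk d 0 (2 * r) z.1) W →
      dist (∫ z, φ z ∂W) (∫ z, χ n z.1 * φ z ∂W) ≤
        |K| * (L / (n + 1)) * ∫ z, gk d 0 (2 * r) z.1 ∂W := fun W n w1 w2 => by
    have b : ∀ z : E × E, ‖z.2‖ ≤ 1 → |φ z| ≤ |K| * gk d 0 r z.1 := fun z hz =>
      (hK z hz).trans (mul_le_mul_of_nonneg_right (le_abs_self K) (gk_pos d 0 hr _).le)
    have i1 : Integrable φ W := by
      refine (w2.const_mul (|K| * (L / ((0 : ℕ) + 1)))).mono' hφ.aestronglyMeasurable
        (w1.mono fun z hz => (b z hz).trans ?_)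
      rw [mul_assoc]
      exact mul_le_mul_of_nonneg_left (hL 0 z.1 (by simp)) (abs_nonneg K)
    have i2 : Integrable (fun z => χ n z.1 * φ z) W :=
      i1.bdd_mul (c := 1) (c1' n).aestronglyMeasurable (Eventually.of_forall fun z => by
        rw [Real.norm_of_nonneg (c3 n _).1]; exact (c3 n _).2)
    rw [dist_eq_norm, ← integral_sub i1 i2, ← integral_const_mul]
    refine norm_integral_le_of_norm_le (w2.const_mul _) (w1.mono fun z hz => ?_)
    have g2 := gk_pos d 0 r2 z.1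
    by_cases h : ‖z.1‖ ≤ n
    · rw [c5 n _ h, one_mul, sub_self, norm_zero]; positivity
    · rw [← one_sub_mul, norm_mul, Real.norm_of_nonneg (sub_nonneg.2 (c3 n _).2), mul_assoc]
      refine (mul_le_of_le_one_left (norm_nonneg _) (by linarith [(c3 n z.1).1])).trans
        ((b z hz).trans ?_)
      exact mul_le_mul_of_nonneg_left (hL n z.1 (not_le.1 h).le) (abs_nonneg K)
  obtain ⟨Λ, hΛ⟩ := h2 (2 * r) r2
  rw [Metric.tendsto_nhds]
  intro ε hε
  have lim : ∀ c : ℝ, ∀ᶠ n : ℕ in atTop, |K| * (L / (n + 1)) * c < ε / 3 := fun c => by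
    have := (tendsto_const_div_atTop_nhds_zero_nat L).comp (tendsto_add_atTop_nat 1)
    have h3 : Tendsto (fun n : ℕ => |K| * (L / (n + 1)) * c) atTop (𝓝 0) := by
      simpa [Function.comp_def] using (this.const_mul |K|).mul_const c
    exact h3.eventually_lt_const (by positivity)
  obtain ⟨n, n1, n2⟩ := ((lim Λ).and (lim (∫ z, gk d 0 (2 * r) z.1 ∂V₀))).exists
  filter_upwards [hΛ, Metric.tendsto_nhds.1 (hcut φ hφ n).2 (ε / 3) (by positivity)] with j j1 j2
  have t1 := tail (V j) n (h1 j) ((integrable_fst_iff (continuous_gk d 0 _)).1 j1.1)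
  have t2 := tail V₀ n h0 (hint _ r2)
  have t3 : |K| * (L / (n + 1)) * ∫ z, gk d 0 (2 * r) z.1 ∂V j ≤ |K| * (L / (n + 1)) * Λ := by
    rw [← th_fst]; exact mul_le_mul_of_nonneg_left j1.2 (by positivity)
  have t4 := dist_triangle4 (∫ z, φ z ∂V j) (∫ z, χ n z.1 * φ z ∂V j) (∫ z, χ n z.1 * φ z ∂V₀)
    (∫ z, φ z ∂V₀)
  rw [dist_comm] at t2
  linarith

end Crest.Agent.R246.C1
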