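import Crest.Agent.R246.C1.Gk
import Crest.Agent.R246.Fub

/-!
Row 246, block C1: Gaussian densities determine the measure; the area measure of a hyperplane.
-/

set_option autoImplicit false
set_option linter.unusedSectionVars false

open MeasureTheory Metric Filter Topology Set Module
open scoped RealInnerProductSpace ENNReal ContDiff Real

namespace Crest.Agent.R246.C1

variable {E : Type} [NormedAddCommGroup E] [InnerProductSpace ℝ E] [FiniteDimensional ℝ E]

theorem gk_one (d : ℕ) (p y : E) :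
    gk d 0 1 y * Real.exp ⟪y, p⟫ = Real.exp (‖p‖ ^ 2 / 2) * gk d p 1 y := by
  rw [gk, gk, mul_assoc, ← Real.exp_add, mul_left_comm, ← Real.exp_add, sub_zero, norm_sub_sq_real]
  congr 2
  ring

/-- moving the centre orthogonally to a hyperplane -/
theorem gk_orth (d : ℕ) {e : E} (he : ‖e‖ = 1) (p : E) (r : ℝ) {y : E} (hy : ⟪e, y⟫ = 0) :
    gk d p r y = Real.exp (-⟪e, p⟫ ^ 2 / (2 * r ^ 2)) * gk d (p - ⟪e, p⟫ • e) r y := by
  have h : y - (p - ⟪e, p⟫ • e) = (y - p) + ⟪e, p⟫ • e := by abel
  rw [gk, gk, mul_left_comm, ← Real.exp_add, h, norm_add_sq_real, inner_smul_right, norm_smul, he,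
    real_inner_comm e (y - p), inner_sub_right, hy, Real.norm_eq_abs, mul_one, sq_abs]
  congr 2
  ring

variable [MeasurableSpace E] [BorelSpace E]

theorem measurable_gk (d : ℕ) (p : E) (r : ℝ) : Measurable fun y => ENNReal.ofReal (gk d p r y) :=
  (continuous_gk d p r).measurable.ennreal_ofReal

open ProbabilityTheory in
/-- the Gaussian densities at scale one determine the measure -/
theorem ext_th {d : ℕ} {μ ν : Measure E} (hμ : ∀ p, Integrable (gk d p 1) μ)
    (hν : ∀ p, Integrable (gk d p 1) ν) (h : ∀ p, th d μ p 1 = th d ν p 1) : μ = ν := by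
  have hf := measurable_gk d (0 : E) 1
  have hpos := gk_pos d (0 : E) one_pos
  have h1 : ∀ μ : Measure E, (μ.withDensity fun y => ENNReal.ofReal (gk d 0 1 y)).withDensity
      (fun y => (ENNReal.ofReal (gk d 0 1 y))⁻¹) = μ := fun μ =>
    withDensity_inv_same hf (Eventually.of_forall fun y => by simpa using hpos y)
      (Eventually.of_forall fun y => ENNReal.ofReal_ne_top)
  have h2 : ∀ (μ : Measure E) (p : E) (t : ℝ), mgf (fun y => ⟪y, p⟫)
      (μ.withDensity fun y => ENNReal.ofReal (gk d 0 1 y)) t =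
        Real.exp (‖t • p‖ ^ 2 / 2) * th d μ (t • p) 1 := fun μ p t => by
    rw [mgf, integral_withDensity_eq_integral_toReal_smul hf
      (Eventually.of_forall fun y => ENNReal.ofReal_lt_top), th, ← integral_const_mul]
    refine integral_congr_ae (Eventually.of_forall fun y => ?_)
    simp only [ENNReal.toReal_ofReal (hpos y).le, smul_eq_mul, ← gk_one, inner_smul_right]
  have := isFiniteMeasure_withDensity_ofReal (hμ 0).2
  have := isFiniteMeasure_withDensity_ofReal (hν 0).2
  rw [← h1 μ, ← h1 ν]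
  congr 1
  refine Measure.ext_of_charFun (funext fun p => ?_)
  have h3 : mgf (fun y => ⟪y, p⟫) (μ.withDensity fun y => ENNReal.ofReal (gk d 0 1 y)) =
      mgf (fun y => ⟪y, p⟫) (ν.withDensity fun y => ENNReal.ofReal (gk d 0 1 y)) :=
    funext fun t => by rw [h2, h2, h]
  have h4 := congrFun h3 0
  simp only [mgf_zero'] at h4
  have h5 : integrableExpSet (fun y => ⟪y, p⟫)
      (μ.withDensity fun y => ENNReal.ofReal (gk d 0 1 y)) = univ := by
    refine eq_univ_of_forall fun t => ?_
    change Integrable _ _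
    rw [integrable_withDensity_iff_integrable_smul' hf
      (Eventually.of_forall fun y => ENNReal.ofReal_lt_top)]
    refine ((hμ (t • p)).const_mul (Real.exp (‖t • p‖ ^ 2 / 2))).congr
      (Eventually.of_forall fun y => ?_)
    simp only [ENNReal.toReal_ofReal (hpos y).le, smul_eq_mul, ← gk_one, inner_smul_right]
  have h6 := eqOn_complexMGF_of_mgf' h3 (by
    rw [← Measure.measure_univ_eq_zero, ← Measure.measure_univ_eq_zero,
      ← measureReal_eq_zero_iff, ← measureReal_eq_zero_iff, h4]) (x := Complex.I) (by simp [h5])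
  simpa only [complexMGF, charFun, mul_comm Complex.I] using h6

theorem ar_plane {d : ℕ} (hE : finrank ℝ E = d + 1) {e : E} (he : ‖e‖ = 1) :
    ar d {y | ⟪e, y⟫ = 0} = (volume : Measure (ℝ ∙ e)ᗮ).map Subtype.val := by
  rw [← InnerProductSpace.euclideanHausdorffMeasure_eq_volume, finrank_orth' hE he,
    isometry_subtype_coe.map_euclideanHausdorffMeasure, ar, Subtype.range_coe_subtype]
  congr 1
  ext y
  exact Submodule.mem_orthogonal_singleton_iff_inner_right.symm

theorem ae_plane (d : ℕ) (e : E) : ∀ᵐ y ∂ar d {y | ⟪e, y⟫ = 0}, ⟪e, y⟫ = 0 :=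
  ae_restrict_mem (isClosed_eq (by fun_prop) continuous_const).measurableSet

theorem inner_proj {e : E} (he : ‖e‖ = 1) (p : E) : ⟪e, p - ⟪e, p⟫ • e⟫ = 0 := by
  rw [inner_sub_right, inner_smul_right, real_inner_self_eq_norm_sq, he]; ring

theorem th_plane {d : ℕ} (hE : finrank ℝ E = d + 1) {e : E} (he : ‖e‖ = 1) {p : E}
    (hp : ⟪e, p⟫ = 0) {r : ℝ} (hr : 0 < r) :
    Integrable (gk d p r) (ar d {y | ⟪e, y⟫ = 0}) ∧ th d (ar d {y | ⟪e, y⟫ = 0}) p r = 1 := by
  let q : (ℝ ∙ e)ᗮ := ⟨p, Submodule.mem_orthogonal_singleton_iff_inner_right.2 hp⟩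
  have h : ∀ x : (ℝ ∙ e)ᗮ, gk d p r (x : E) = gk d q r x := fun x => rfl
  have hm := (continuous_gk d p r).aestronglyMeasurable
    (μ := (volume : Measure (ℝ ∙ e)ᗮ).map Subtype.val)
  rw [th, ar_plane hE he, integrable_map_measure hm measurable_subtype_coe.aemeasurable,
    integral_map measurable_subtype_coe.aemeasurable hm]
  refine ⟨integrable_gk d q hr, ?_⟩
  have := integral_gk q hr
  rwa [finrank_orth' hE he] at this

/-- densities of a measure carried by a hyperplane -/
theorem th_orth {d : ℕ} {μ : Measure E} {e : E} (he : ‖e‖ = 1) (hμ : ∀ᵐ y ∂μ, ⟪e, y⟫ = 0) (p : E)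
    (r : ℝ) : th d μ p r = Real.exp (-⟪e, p⟫ ^ 2 / (2 * r ^ 2)) * th d μ (p - ⟪e, p⟫ • e) r := by
  rw [th, th, ← integral_const_mul]
  exact integral_congr_ae (hμ.mono fun y hy => gk_orth d he p r hy)

theorem integrable_plane {d : ℕ} (hE : finrank ℝ E = d + 1) {e : E} (he : ‖e‖ = 1) (p : E)
    {r : ℝ} (hr : 0 < r) : Integrable (gk d p r) (ar d {y | ⟪e, y⟫ = 0}) :=
  ((th_plane hE he (inner_proj he p) hr).1.const_mul _).congr
    ((ae_plane d e).mono fun _ hy => (gk_orth d he p r hy).symm)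

end Crest.Agent.R246.C1
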