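import Crest.Agent.R246.C1.Stat
import Crest.Agent.R246.C1.Ext

/-!
Row 246, block C1: cones, translation invariance, constancy theorem.
-/

set_option autoImplicit false
set_option linter.unusedSectionVars false

open MeasureTheory Metric Filter Topology Set Module
open scoped RealInnerProductSpace ENNReal ContDiff Real

namespace Crest.Agent.R246.C1

variable {E : Type} [NormedAddCommGroup E] [InnerProductSpace ℝ E] [FiniteDimensional ℝ E]
  [MeasurableSpace E] [BorelSpace E]

theorem th_map (d : ℕ) (μ : Measure E) {f : E → E} (hf : Continuous f) (p : E) (r : ℝ) :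
    th d (μ.map f) p r = ∫ y, gk d p r (f y) ∂μ :=
  integral_map hf.aemeasurable (continuous_gk d p r).aestronglyMeasurable

theorem th_smul (d : ℕ) (μ : Measure E) {c : ℝ} (hc : 0 ≤ c) (p : E) (r : ℝ) :
    th d (ENNReal.ofReal c • μ) p r = c * th d μ p r := by
  rw [th, integral_smul_measure, ENNReal.toReal_ofReal hc]; rfl

/-- densities are invariant under translations tangent to the varifold -/
theorem th_add {d : ℕ} (hE : finrank ℝ E = d + 1) {V : Measure (E × E)} (hV : SV0 d V) {a : E}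
    (ha : ∀ᵐ z ∂V, ⟪z.2, a⟫ = 0) (p : E) (s : ℝ) {r : ℝ} (hr : 0 < r) :
    th d V.fst (p + s • a) r = th d V.fst p r := by
  simpa using th_eq_of_path hE hV p a r 0 0 s (by simpa) (by simpa)
    (ha.mono fun z hz t => by simp [hz])

/-- translation invariance -/
theorem map_add_eq {d : ℕ} (hE : finrank ℝ E = d + 1) {V : Measure (E × E)} (hV : SV0 d V) {a : E}
    (ha : ∀ᵐ z ∂V, ⟪z.2, a⟫ = 0) (s : ℝ) : V.fst.map (fun y => y + s • a) = V.fst := by
  have hc : Continuous fun y : E => y + s • a := by fun_prop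
  have h : ∀ p y, gk d p 1 (y + s • a) = gk d (p + (-s) • a) 1 y := fun p y => by
    rw [gk_sub, gk_sub d (p + _)]; congr 1; rw [neg_smul]; abel
  refine ext_th (d := d) (fun p => ?_) (fun p => hV.integ p 1 one_pos) fun p => ?_
  · rw [integrable_map_measure (continuous_gk d p 1).aestronglyMeasurable hc.aemeasurable]
    exact (hV.integ _ 1 one_pos).congr (Eventually.of_forall fun y => (h p y).symm)
  · rw [th_map d _ hc, ← th_add hE hV ha p (-s) one_pos]
    simp only [h, th]

theorem th_cone {d : ℕ} (hE : finrank ℝ E = d + 1) {V : Measure (E × E)} (hV : SV0 d V)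
    (hC : VCone V) {t : ℝ} (p : E) {r : ℝ} (ht : 0 < t) (hr : 0 < r) :
    th d V.fst (t • p) (t * r) = th d V.fst p r := by
  simpa using th_eq_of_path hE hV 0 p 0 r 1 t (by simpa) (by simpa using mul_pos ht hr)
    (hC.mono fun z hz u => by
      rw [zero_add, inner_sub_right, hz, inner_smul_right]; ring)

/-- dilation invariance -/
theorem map_smul_eq {d : ℕ} (hE : finrank ℝ E = d + 1) {V : Measure (E × E)} (hV : SV0 d V)
    (hC : VCone V) {t : ℝ} (ht : 0 < t) :
    V.fst.map (fun y => t • y) = ENNReal.ofReal (t⁻¹ ^ d) • V.fst := by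
  have hc : Continuous fun y : E => t • y := by fun_prop
  have h : ∀ p y : E, gk d p 1 (t • y) = t⁻¹ ^ d * gk d (t⁻¹ • p) (t⁻¹ * 1) y := fun p y => by
    rw [← gk_smul d _ _ _ ht, smul_inv_smul₀ ht.ne', mul_inv_cancel_left₀ ht.ne']
  refine ext_th (d := d) (fun p => ?_)
    (fun p => (hV.integ p 1 one_pos).smul_measure ENNReal.ofReal_ne_top) fun p => ?_
  · rw [integrable_map_measure (continuous_gk d p 1).aestronglyMeasurable hc.aemeasurable]
    exact ((hV.integ _ _ (by positivity)).const_mul _).congr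
      (Eventually.of_forall fun y => (h p y).symm)
  · rw [th_map d _ hc, th_smul d _ (by positivity), ← th_cone hE hV hC p (inv_pos.2 ht) one_pos]
    simp only [h, th, integral_const_mul]

theorem cone : StCone E := by
  intro d hE V hV hC
  refine ⟨fun t p r ht hr => th_cone hE hV hC p ht hr, fun t ht y hy => ?_, fun p r hr => ?_⟩
  · rw [Measure.mem_support_iff_forall] at hy ⊢
    intro U hU
    have hc : Continuous fun y : E => t • y := by fun_prop
    have h := (hy _ (hc.continuousAt.preimage_mem_nhds hU)).trans_le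
      (Measure.le_map_apply hc.aemeasurable U)
    rw [map_smul_eq hE hV hC ht, Measure.smul_apply, smul_eq_mul, ENNReal.mul_pos_iff] at h
    exact h.2
  · have h := (hasDerivAt_th hE hV 0 p 1 0 (t := 0) (by simp)).continuousAt.tendsto
    simp only [zero_add, mul_zero, add_zero, zero_smul] at h
    refine ge_of_tendsto (h.mono_left (nhdsWithin_le_nhds (s := Ioi 0))) ?_
    filter_upwards [Ioo_mem_nhdsGT (inv_pos.2 hr)] with t ht
    have h1 := th_cone hE hV hC p ht.1 (inv_pos.2 ht.1)
    rw [mul_inv_cancel₀ ht.1.ne'] at h1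
    rw [h1]
    exact (mono d hE V hV p r t⁻¹ hr ((le_inv_comm₀ hr ht.1).2 ht.2.le)).2

theorem const : StConst E := by
  intro d hE V hV e he hs
  have h0 : ∀ᵐ y ∂V.fst, ⟪e, y⟫ = 0 := by
    filter_upwards [Measure.support_mem_ae (μ := V.fst)] with y hy using hs y hy
  have h0' : ∀ᵐ z ∂V, ⟪e, z.1⟫ = 0 := ae_of_ae_map measurable_fst.aemeasurable h0
  have hρ : (0 : ℝ) < 3 / 2 * 1 := by norm_num
  have ha : ∀ z : E × E, ‖z.2‖ ≤ 1 → ⟪z.2, e⟫ ^ 2 ≤ 1 := fun z hz => by
    rw [sq_le_one_iff_abs_le_one]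
    exact (abs_real_inner_le_norm _ _).trans (by rw [he, mul_one]; exact hz)
  have h1 : ∀ᵐ z ∂V, ⟪z.2, e⟫ ^ 2 = 1 := by
    obtain ⟨K, hK⟩ := cacc (E := E) d
    have h2 := hK V hV 0 1 e one_pos he
    have h3 : hx d V.fst 0 1 e = 0 :=
      integral_eq_zero_of_ae (h0.mono fun y hy => by simp [hy])
    rw [h3, mul_zero] at h2
    have h4 : 0 ≤ᵐ[V] fun z => (1 - ⟪z.2, e⟫ ^ 2) * gk d 0 (3 / 2 * 1) z.1 := by
      filter_upwards [SV0.le_one hV] with z hz
      exact mul_nonneg (sub_nonneg.2 (ha z hz)) (gk_pos d 0 hρ z.1).le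
    have h5 : Integrable (fun z : E × E => (1 - ⟪z.2, e⟫ ^ 2) * gk d 0 (3 / 2 * 1) z.1) V := by
      simp only [mul_comm _ (gk d (0 : E) _ _)]
      refine integrable_gk_mul hV 0 hρ (by fun_prop) 1 0 fun z hz => ?_
      rw [abs_of_nonneg (sub_nonneg.2 (ha z hz))]
      simp [sq_nonneg]
    filter_upwards [(integral_eq_zero_iff_of_nonneg_ae h4 h5).1
      (le_antisymm h2 (integral_nonneg_of_ae h4))] with z hz
    have := (mul_eq_zero.1 hz).resolve_right (gk_pos d 0 hρ z.1).ne'
    linarith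
  have h2 : ∀ p r, ⟪e, p⟫ = 0 → 0 < r → th d V.fst p r = th d V.fst 0 1 := fun p r hp hr => by
    have h3 := th_eq_of_path hE hV 0 p 1 (r - 1) 0 1 (by simp) (by simpa) ?_
    · simpa using h3
    filter_upwards [h1, h0', hV.unit] with z z1 z0 zu t
    have n2 : ‖z.2 - ⟪z.2, e⟫ • e‖ ^ 2 = 0 := by
      rw [@norm_sub_sq_real, inner_smul_right, norm_smul, he, zu, Real.norm_eq_abs, mul_one, sq_abs]
      linarith
    have n3 : z.2 = ⟪z.2, e⟫ • e :=
      sub_eq_zero.1 (norm_eq_zero.1 ((pow_eq_zero_iff two_ne_zero).1 n2))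
    have n4 : ⟪z.2, z.1 - (0 + t • p)⟫ = 0 := by
      rw [n3, real_inner_smul_left, inner_sub_right, z0, zero_add, inner_smul_right, hp]; ring
    rw [n4, mul_zero]
  have h3 := th_nonneg d V.fst 0 one_pos
  refine ⟨h1, th d V.fst 0 1, h3, ?_, h2⟩
  refine ext_th (d := d) (fun p => hV.integ p 1 one_pos)
    (fun p => (integrable_plane hE he p one_pos).smul_measure ENNReal.ofReal_ne_top) fun p => ?_
  rw [th_smul d _ h3, th_orth he h0, th_orth he (ae_plane d e), h2 _ _ (inner_proj he p) one_pos,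
    (th_plane hE he (inner_proj he p) one_pos).2]
  ring

end Crest.Agent.R246.C1
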