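import Crest.Agent.R246.C1.Cone
import Crest.Agent.R246.C1.Comp

/-! Row 246, block C1: final statements (see `R246/Blueprint.lean`). -/

set_option autoImplicit false

namespace Crest.Agent.R246

theorem bas : Bas :=
  ⟨fun _ _ _ _ _ _ => C1.statG, fun _ _ _ _ _ _ => C1.mono, fun _ _ _ _ _ _ => C1.cone,
    fun _ _ _ _ _ _ => C1.comp, fun _ _ _ _ _ _ => C1.cacc, fun _ _ _ _ _ _ => C1.const⟩

end Crest.Agent.R246
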