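import Crest.Agent.R246.C1.Gk

/-!
Row 246, block C1: stationarity against Gaussian fields, derivative of the density along a path,
monotonicity formula, Caccioppoli inequality.
-/

set_option autoImplicit false
set_option linter.unusedSectionVars false

open MeasureTheory Metric Filter Topology Set Module
open scoped RealInnerProductSpace ENNReal ContDiff Real

namespace Crest.Agent.R246.C1

variable {E : Type} [NormedAddCommGroup E] [InnerProductSpace ℝ E] [FiniteDimensional ℝ E]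

variable (E) in
/-- cut-off functions with uniformly bounded derivative -/
theorem exists_cut : ∃ (χ : ℕ → E → ℝ) (L : ℝ), 0 ≤ L ∧ (∀ n, ContDiff ℝ 1 (χ n)) ∧
    (∀ n, HasCompactSupport (χ n)) ∧ (∀ n y, 0 ≤ χ n y ∧ χ n y ≤ 1) ∧
    (∀ n y, ‖fderiv ℝ (χ n) y‖ ≤ L) ∧ ∀ (n : ℕ) y, ‖y‖ ≤ n → χ n y = 1 := by
  let b : ContDiffBump (0 : E) := ⟨1, 2, one_pos, one_lt_two⟩
  have hb : ContDiff ℝ 1 b := b.contDiff
  obtain ⟨L, hL⟩ := (hb.continuous_fderiv one_ne_zero).bounded_above_of_compact_support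
    (b.hasCompactSupport.fderiv ℝ)
  have hL0 : 0 ≤ L := (norm_nonneg _).trans (hL 0)
  have hn : ∀ n : ℕ, (0 : ℝ) < ((n : ℝ) + 1)⁻¹ := fun n => by positivity
  refine ⟨fun n y => b (((n : ℝ) + 1)⁻¹ • y), L, hL0, fun n => hb.comp (contDiff_const_smul _),
    fun n => ?_, fun n y => ⟨b.nonneg, b.le_one⟩, fun n y => ?_, fun n y hy => ?_⟩
  · exact b.hasCompactSupport.comp_homeomorph (Homeomorph.smulOfNeZero _ (hn n).ne')
  · have h : HasFDerivAt (fun y => b (((n : ℝ) + 1)⁻¹ • y)) ((fderiv ℝ b (((n : ℝ) + 1)⁻¹ • y)).comp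
        (((n : ℝ) + 1)⁻¹ • ContinuousLinearMap.id ℝ E)) y :=
      (hb.differentiable one_ne_zero _).hasFDerivAt.comp y
        ((hasFDerivAt_id y).const_smul ((n : ℝ) + 1)⁻¹)
    beta_reduce
    rw [h.fderiv]
    refine (ContinuousLinearMap.opNorm_comp_le _ _).trans ?_
    have h1 : ‖((n : ℝ) + 1)⁻¹ • ContinuousLinearMap.id ℝ E‖ ≤ 1 := by
      rw [norm_smul, Real.norm_of_nonneg (hn n).le]
      exact mul_le_one₀ (inv_le_one_of_one_le₀ (by simp)) (norm_nonneg _)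
        ContinuousLinearMap.norm_id_le
    calc _ ≤ L * 1 := mul_le_mul (hL _) h1 (norm_nonneg _) hL0
      _ = L := mul_one L
  · refine b.one_of_mem_closedBall ?_
    rw [mem_closedBall_zero_iff, norm_smul, Real.norm_of_nonneg (hn n).le]
    change _ ≤ (1 : ℝ)
    rw [inv_mul_le_iff₀ (by positivity)]
    linarith

theorem hasDerivAt_gk_path (d : ℕ) (p p₁ : E) (r r₁ : ℝ) (y : E) {t : ℝ} (ht : 0 < r + t * r₁) :
    HasDerivAt (fun t : ℝ => gk d (p + t • p₁) (r + t * r₁) y)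
      (gk d (p + t • p₁) (r + t * r₁) y * (-(d * r₁ / (r + t * r₁)) +
        (r₁ / (r + t * r₁) * ‖y - (p + t • p₁)‖ ^ 2 + ⟪y - (p + t • p₁), p₁⟫) /
          (r + t * r₁) ^ 2)) t := by
  have hpi : 0 < √(2 * π) := Real.sqrt_pos.2 (by have := Real.pi_pos; positivity)
  have hR : HasDerivAt (fun t : ℝ => r + t * r₁) r₁ t := by
    simpa using ((hasDerivAt_id t).mul_const r₁).const_add r
  have hP : HasDerivAt (fun t : ℝ => y - (p + t • p₁)) (-p₁) t := by
    simpa using (((hasDerivAt_id t).smul_const p₁).const_add p).const_sub y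
  have h := (((hR.const_mul √(2 * π)).inv (by positivity)).pow d).mul
    (hP.norm_sq.neg.div ((hR.pow 2).const_mul 2)
      (show 2 * (r + t * r₁) ^ 2 ≠ 0 by positivity)).exp
  refine (h.congr_deriv ?_).congr_of_eventuallyEq (Eventually.of_forall fun x => rfl)
  simp only [gk, Pi.pow_apply, Pi.inv_apply, Pi.neg_apply, Pi.div_apply, inner_neg_right]
  generalize r + t * r₁ = R at ht
  rcases d with _ | d
  · simp; field_simp; ring
  · simp [pow_succ]; field_simp; ring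

variable [MeasurableSpace E] [BorelSpace E]

theorem statG : StStatG E := by
  intro d V hV X K r hr hX h0 h1
  obtain ⟨χ, L, hL, c1, c2, c3, c4, c5⟩ := exists_cut E
  have hXn : ∀ n, ContDiff ℝ 1 fun y => χ n y • X y := fun n => (c1 n).smul hX
  have h := tendsto_integral_of_dominated_convergence (μ := V)
    (F := fun n z => divT (fun y => χ n y • X y) z) (f := divT X)
    (fun z => (finrank ℝ E + 1) * ((1 + L) * K) * gk d 0 r z.1)
    (fun n => (continuous_divT (hXn n)).aestronglyMeasurable)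
    ((SV0.integ' hV 0 hr).const_mul _) (fun n => ?_) (Eventually.of_forall fun z => ?_)
  · have h2 : ∀ n, ∫ z, divT (fun y => χ n y • X y) z ∂V = 0 := fun n =>
      hV.stat _ (hXn n) (c2 n).smul_right
    simp only [h2] at h
    exact tendsto_nhds_unique h tendsto_const_nhds |>.symm ▸ rfl
  · filter_upwards [SV0.le_one hV] with z hz
    refine (abs_divT_le _ hz).trans ?_
    have e := (((c1 n).differentiable one_ne_zero z.1).hasFDerivAt.smul
      (hX.differentiable one_ne_zero z.1).hasFDerivAt).fderiv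
    have e' : (fun y => χ n y • X y) = χ n • X := rfl
    rw [e', e, mul_assoc]
    gcongr
    refine (norm_add_le _ _).trans ?_
    rw [norm_smul, ContinuousLinearMap.norm_smulRight_apply, Real.norm_of_nonneg (c3 n _).1]
    have a1 : χ n z.1 * ‖fderiv ℝ X z.1‖ ≤ 1 * (K * gk d 0 r z.1) :=
      mul_le_mul (c3 n _).2 (h1 _) (norm_nonneg _) zero_le_one
    have a2 : ‖fderiv ℝ (χ n) z.1‖ * ‖X z.1‖ ≤ L * (K * gk d 0 r z.1) :=
      mul_le_mul (c4 n _) (h0 _) (norm_nonneg _) hL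
    linarith
  · refine tendsto_const_nhds.congr' ?_
    filter_upwards [tendsto_natCast_atTop_atTop.eventually_gt_atTop ‖z.1‖] with n hn
    have : (fun y => χ n y • X y) =ᶠ[𝓝 z.1] X := by
      filter_upwards [(isOpen_lt continuous_norm continuous_const).mem_nhds hn] with y hy
      rw [c5 n y (le_of_lt hy), one_smul]
    simp only [divT, this.fderiv_eq]

theorem norm_sub_le_mul {y p : E} {M : ℝ} (hp : ‖p‖ ≤ M) : ‖y - p‖ ≤ (1 + M) * (1 + ‖y‖) := by
  have := norm_sub_le y p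
  have h0 := norm_nonneg y
  have h1 := (norm_nonneg p).trans hp
  nlinarith [mul_nonneg h0 h1]

theorem norm_aff_le (A : E →L[ℝ] E) (c y : E) : ‖A y + c‖ ≤ (‖A‖ + ‖c‖) * (1 + ‖y‖) := by
  have := norm_add_le (A y) c
  have := A.le_opNorm y
  nlinarith [norm_nonneg A, mul_nonneg (norm_nonneg c) (norm_nonneg y)]

/-- stationarity against a Gaussian times an affine field -/
theorem stat_aff {d : ℕ} {V : Measure (E × E)} (hV : SV0 d V) (p : E) {r : ℝ} (hr : 0 < r)
    (A : E →L[ℝ] E) (c : E) :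
    ∫ z, gk d p r z.1 * (trc A - ⟪z.2, A z.2⟫ -
      (⟪z.1 - p, A z.1 + c⟫ - ⟪z.1 - p, z.2⟫ * ⟪z.2, A z.1 + c⟫) / r ^ 2) ∂V = 0 := by
  obtain ⟨K, hK, h⟩ := gk_dom₁ d 2 p hr
  set C : ℝ := ‖A‖ + ‖c‖ + (1 + ‖p‖) * (‖A‖ + ‖c‖) / r ^ 2 with hC
  have hY : ∀ y, HasFDerivAt (fun y => A y + c) A y := fun y => A.hasFDerivAt.add_const c
  have key := statG d V hV (fun y => gk d p r y • (A y + c)) (C * K) (2 * r) (by positivity)
    ((contDiff_gk d p r).smul (A.contDiff.add contDiff_const)) (fun y => ?_) (fun y => ?_)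
  · rw [← key]
    refine integral_congr_ae (Eventually.of_forall fun z => ?_)
    simp only [divT_smul (hasFDerivAt_gk d p r z.1) (hY z.1).differentiableAt, divT_aff,
      smul_apply, innerSL_apply_apply, smul_eq_mul]
    ring
  · have g0 := gk_pos d p hr y
    have hy := norm_nonneg y
    rw [norm_smul, Real.norm_of_nonneg g0.le, mul_assoc]
    refine le_trans ?_ (mul_le_mul_of_nonneg_left (h y) (by positivity))
    have h2 : ‖A y + c‖ ≤ C * (1 + ‖y‖) ^ 2 := (norm_aff_le A c y).trans <| by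
      refine mul_le_mul (le_add_of_nonneg_right (by positivity)) (by nlinarith) (by positivity)
        (by positivity)
    nlinarith
  · have g0 := gk_pos d p hr y
    have hy := norm_nonneg y
    have e := ((hasFDerivAt_gk d p r y).smul (hY y)).fderiv
    have e' : (fun y => gk d p r y • (A y + c)) = gk d p r • fun y => A y + c := rfl
    rw [e', e, mul_assoc]
    refine le_trans ?_ (mul_le_mul_of_nonneg_left (h y) (by positivity))
    refine (norm_add_le _ _).trans ?_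
    rw [norm_smul, ContinuousLinearMap.norm_smulRight_apply, Real.norm_of_nonneg g0.le, norm_smul,
      innerSL_apply_norm, norm_neg, Real.norm_of_nonneg (by positivity)]
    have h2 : ‖y - p‖ * ‖A y + c‖ ≤ (1 + ‖p‖) * (1 + ‖y‖) * ((‖A‖ + ‖c‖) * (1 + ‖y‖)) :=
      mul_le_mul (norm_sub_le_mul le_rfl) (norm_aff_le A c y) (norm_nonneg _) (by positivity)
    have h3 : ‖A‖ ≤ (‖A‖ + ‖c‖) * (1 + ‖y‖) ^ 2 :=
      (le_add_of_nonneg_right (norm_nonneg c)).trans
        (le_mul_of_one_le_right (by positivity) (by nlinarith))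
    calc gk d p r y * ‖A‖ + gk d p r y / r ^ 2 * ‖y - p‖ * ‖A y + c‖
        = gk d p r y * ‖A‖ + gk d p r y / r ^ 2 * (‖y - p‖ * ‖A y + c‖) := by ring
      _ ≤ gk d p r y * ((‖A‖ + ‖c‖) * (1 + ‖y‖) ^ 2) + gk d p r y / r ^ 2 *
          ((1 + ‖p‖) * (1 + ‖y‖) * ((‖A‖ + ‖c‖) * (1 + ‖y‖))) := by gcongr
      _ = _ := by rw [hC]; ring

/-- derivative of the density along a straight path in centre and scale -/
theorem hasDerivAt_th {d : ℕ} (hE : finrank ℝ E = d + 1) {V : Measure (E × E)} (hV : SV0 d V)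
    (p p₁ : E) (r r₁ : ℝ) {t : ℝ} (ht : 0 < r + t * r₁) :
    HasDerivAt (fun t : ℝ => th d V.fst (p + t • p₁) (r + t * r₁))
      (∫ z, gk d (p + t • p₁) (r + t * r₁) z.1 *
        ((r₁ / (r + t * r₁) * ⟪z.2, z.1 - (p + t • p₁)⟫ + ⟪z.2, p₁⟫) *
          ⟪z.2, z.1 - (p + t • p₁)⟫ / (r + t * r₁) ^ 2) ∂V) t := by
  set a := (r + t * r₁) / 2 with ha
  set M := ‖p + t • p₁‖ + 1 with hM
  have a0 : 0 < a := by positivity
  have M0 : 0 ≤ M := by positivity
  obtain ⟨K, hK, h⟩ := gk_dom (E := E) d 2 (4 * a) M a0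
  have hs : {u : ℝ | a < r + u * r₁ ∧ r + u * r₁ < 4 * a ∧ ‖p + u • p₁‖ < M} ∈ 𝓝 t := by
    have c1 : ContinuousAt (fun u : ℝ => r + u * r₁) t := by fun_prop
    have c2 : ContinuousAt (fun u : ℝ => ‖p + u • p₁‖) t := by fun_prop
    exact (continuousAt_const.eventually_lt c1 (by linarith)).and
      ((c1.eventually_lt continuousAt_const (by linarith)).and
        (c2.eventually_lt continuousAt_const (by linarith)))
  set C : ℝ := d * |r₁| / a + (|r₁| / a * (1 + M) ^ 2 + (1 + M) * ‖p₁‖) / a ^ 2 with hC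
  have key := hasDerivAt_integral_of_dominated_loc_of_deriv_le (μ := V)
    (F := fun u z => gk d (p + u • p₁) (r + u * r₁) z.1)
    (bound := fun z => C * K * gk d 0 (2 * (4 * a)) z.1) hs
    (Eventually.of_forall fun u =>
      ((continuous_gk d _ _).comp continuous_fst).aestronglyMeasurable)
    (SV0.integ' hV _ ht)
    (F' := fun u z => gk d (p + u • p₁) (r + u * r₁) z.1 * (-(d * r₁ / (r + u * r₁)) +
        (r₁ / (r + u * r₁) * ‖z.1 - (p + u • p₁)‖ ^ 2 + ⟪z.1 - (p + u • p₁), p₁⟫) /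
          (r + u * r₁) ^ 2))
    (Continuous.aestronglyMeasurable
      (((continuous_gk d _ _).comp continuous_fst).mul (by fun_prop)))
    (Eventually.of_forall fun z u hu => ?_) ((SV0.integ' hV 0 (by positivity)).const_mul _)
    (Eventually.of_forall fun z u hu => hasDerivAt_gk_path d p p₁ r r₁ z.1 (a0.trans hu.1))
  · simp only [th_fst]
    refine key.2.congr_deriv ?_
    have h1 := key.1
    have h2 := stat_aff hV (p + t • p₁) ht ((r₁ / (r + t * r₁)) • ContinuousLinearMap.id ℝ E)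
      (p₁ - (r₁ / (r + t * r₁)) • (p + t • p₁))
    generalize p + t • p₁ = P at h1 h2 ⊢
    generalize r + t * r₁ = R at h1 h2 ht ⊢
    have h3 := integrable_gk_mul hV P ht (f := fun z =>
      (r₁ / R * ⟪z.2, z.1 - P⟫ + ⟪z.2, p₁⟫) * ⟪z.2, z.1 - P⟫ / R ^ 2) (by fun_prop)
      ((|r₁| / R * (1 + ‖P‖) + ‖p₁‖) * (1 + ‖P‖) / R ^ 2) 2 fun z hz => by
        have b1 : |⟪z.2, z.1 - P⟫| ≤ (1 + ‖P‖) * (1 + ‖z.1‖) :=
          (abs_real_inner_le_norm _ _).trans
            ((mul_le_of_le_one_left (norm_nonneg _) hz).trans (norm_sub_le_mul le_rfl))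
        have b2 : |⟪z.2, p₁⟫| ≤ ‖p₁‖ * (1 + ‖z.1‖) :=
          (abs_real_inner_le_norm _ _).trans ((mul_le_of_le_one_left (norm_nonneg _) hz).trans
            (le_mul_of_one_le_right (norm_nonneg _) (by linarith [norm_nonneg z.1])))
        rw [abs_div, abs_mul, abs_of_pos (pow_pos ht 2)]
        calc _ ≤ (|r₁| / R * ((1 + ‖P‖) * (1 + ‖z.1‖)) + ‖p₁‖ * (1 + ‖z.1‖)) *
              ((1 + ‖P‖) * (1 + ‖z.1‖)) / R ^ 2 := by
              gcongr
              refine (abs_add_le _ _).trans ?_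
              rw [abs_mul, abs_div, abs_of_pos ht]
              gcongr
          _ = _ := by ring
    rw [← sub_eq_zero, ← integral_sub h1 h3, ← neg_eq_zero, ← integral_neg, ← h2]
    refine integral_congr_ae (hV.unit.mono fun z hz => ?_)
    have e : ((r₁ / R) • ContinuousLinearMap.id ℝ E) z.1 + (p₁ - (r₁ / R) • P) =
        (r₁ / R) • (z.1 - P) + p₁ := by
      simp only [smul_apply, ContinuousLinearMap.id_apply, smul_sub]; abel
    simp only
    rw [e]
    simp only [trc_smul, trc_id, hE, smul_apply, ContinuousLinearMap.id_apply, inner_add_right,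
      inner_smul_right, real_inner_self_eq_norm_sq, hz, real_inner_comm z.2 (z.1 - P)]
    push_cast
    ring
  · obtain ⟨h1, h2, h3⟩ := hu
    have hy := norm_nonneg z.1
    have h4 := h _ h3.le _ h1.le h2.le z.1
    have h5 : ‖z.1 - (p + u • p₁)‖ ≤ (1 + M) * (1 + ‖z.1‖) := norm_sub_le_mul h3.le
    generalize p + u • p₁ = P at *
    generalize r + u * r₁ = R at *
    have R0 := a0.trans h1
    have g0 := gk_pos d P R0 z.1
    rw [Real.norm_eq_abs, abs_mul, abs_of_pos g0, mul_assoc]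
    refine le_trans ?_ (mul_le_mul_of_nonneg_left h4 (by positivity))
    rw [← mul_assoc, mul_comm]
    gcongr
    refine (abs_add_le _ _).trans ?_
    rw [abs_neg, abs_div, abs_div, abs_mul, abs_of_pos R0, abs_of_pos (pow_pos R0 2), Nat.abs_cast]
    have h6 : (1 : ℝ) ≤ (1 + ‖z.1‖) ^ 2 := by nlinarith
    have h7 : |⟪z.1 - P, p₁⟫| ≤ (1 + M) * (1 + ‖z.1‖) ^ 2 * ‖p₁‖ := by
      refine (abs_real_inner_le_norm _ _).trans ?_
      gcongr
      refine h5.trans ?_
      gcongr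
      nlinarith
    calc _ ≤ d * |r₁| / a * (1 + ‖z.1‖) ^ 2 + (|r₁| / a * ((1 + M) * (1 + ‖z.1‖)) ^ 2 +
          (1 + M) * (1 + ‖z.1‖) ^ 2 * ‖p₁‖) / a ^ 2 := by
          gcongr
          · exact le_trans (by gcongr) (le_mul_of_one_le_right (by positivity) h6)
          · refine (abs_add_le _ _).trans ?_
            rw [abs_mul, abs_div, abs_of_pos R0, abs_of_nonneg (sq_nonneg ‖z.1 - P‖)]
            gcongr
      _ = _ := by rw [hC]; ring

theorem mono : StMono E := by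
  intro d hE V hV p a b ha hab
  have hd : ∀ x ∈ uIcc a b, HasDerivAt (fun r => th d V.fst p r)
      (∫ z, ⟪z.2, z.1 - p⟫ ^ 2 / x ^ 3 * gk d p x z.1 ∂V) x := fun x hx => by
    rw [uIcc_of_le hab] at hx
    have h := hasDerivAt_th hE hV p 0 0 1 (t := x) (by linarith [hx.1])
    simp only [smul_zero, add_zero, mul_one, zero_add, inner_zero_right] at h
    refine h.congr_deriv (integral_congr_ae (Eventually.of_forall fun z => ?_))
    simp only
    ring
  have hp : ∀ x, a ≤ x → 0 ≤ ∫ z, ⟪z.2, z.1 - p⟫ ^ 2 / x ^ 3 * gk d p x z.1 ∂V := fun x hx => by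
    have := ha.trans_le hx
    exact integral_nonneg fun z => by have := gk_pos d p this z.1; positivity
  have h := intervalIntegral.integral_eq_sub_of_hasDerivAt hd
    (intervalIntegral.intervalIntegrable_deriv_of_nonneg (HasDerivAt.continuousOn hd)
      (fun x hx => hd x (Ioo_subset_Icc_self hx)) fun x hx => hp x (min_eq_left hab ▸ hx.1.le))
  refine ⟨h.symm, ?_⟩
  rw [← sub_nonneg, ← h]
  exact intervalIntegral.integral_nonneg hab fun x hx => hp x hx.1

/-- the density is constant along a path on which the derivative vanishes -/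
theorem th_eq_of_path {d : ℕ} (hE : finrank ℝ E = d + 1) {V : Measure (E × E)} (hV : SV0 d V)
    (p p₁ : E) (r r₁ : ℝ) (a b : ℝ) (ha : 0 < r + a * r₁) (hb : 0 < r + b * r₁)
    (h : ∀ᵐ z ∂V, ∀ t : ℝ, (r₁ * ⟪z.2, z.1 - (p + t • p₁)⟫ + (r + t * r₁) * ⟪z.2, p₁⟫) *
      ⟪z.2, z.1 - (p + t • p₁)⟫ = 0) :
    th d V.fst (p + b • p₁) (r + b * r₁) = th d V.fst (p + a • p₁) (r + a * r₁) := by
  have hd : ∀ x ∈ uIcc a b, HasDerivAt (fun t : ℝ => th d V.fst (p + t • p₁) (r + t * r₁))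
      ((fun _ => (0 : ℝ)) x) x := fun x hx => by
    have hx0 : 0 < r + x * r₁ := by
      rcases le_total 0 r₁ with h1 | h1 <;> rcases mem_uIcc.1 hx with h2 | h2 <;>
        nlinarith [h2.1, h2.2]
    refine (hasDerivAt_th hE hV p p₁ r r₁ hx0).congr_deriv
      (integral_eq_zero_of_ae (h.mono fun z hz => ?_))
    have := hz x
    simp only [Pi.zero_apply]
    generalize ⟪z.2, z.1 - (p + x • p₁)⟫ = u at this ⊢
    generalize r + x * r₁ = R at this hx0 ⊢
    have e : (r₁ / R * u + ⟪z.2, p₁⟫) * u = (r₁ * u + R * ⟪z.2, p₁⟫) * u / R := by field_simp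
    rw [e, this]; simp
  have := intervalIntegral.integral_eq_sub_of_hasDerivAt hd (by simp)
  simp only [intervalIntegral.integral_zero] at this
  linarith

theorem gk_cacc (d : ℕ) (p : E) {r : ℝ} (hr : 0 < r) (y : E) :
    gk d p (3 / 2 * r) y * (‖y - p‖ ^ 2 / (3 / 2 * r) ^ 4) ≤
      (4 / 3) ^ d * 3 / r ^ 2 * gk d p (2 * r) y := by
  have hpi : 0 < √(2 * π) := Real.sqrt_pos.2 (by have := Real.pi_pos; positivity)
  set s := ‖y - p‖ ^ 2 / r ^ 2 with hs
  have s0 : 0 ≤ s := by positivity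
  have e1 : (√(2 * π) * (3 / 2 * r))⁻¹ = 4 / 3 * (√(2 * π) * (2 * r))⁻¹ := by field_simp; ring
  have e2 : -‖y - p‖ ^ 2 / (2 * (3 / 2 * r) ^ 2) =
      -‖y - p‖ ^ 2 / (2 * (2 * r) ^ 2) + -(7 / 72 * s) := by rw [hs]; field_simp; ring
  have e3 : ‖y - p‖ ^ 2 / (3 / 2 * r) ^ 4 = 16 / 81 * s / r ^ 2 := by rw [hs]; field_simp; ring
  have e4 : Real.exp (-(7 / 72 * s)) * (16 / 81 * s) ≤ 3 := by
    rw [Real.exp_neg, inv_mul_le_iff₀ (Real.exp_pos _)]
    linarith [Real.add_one_le_exp (7 / 72 * s)]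
  rw [gk, gk, e1, e2, e3, Real.exp_add, mul_pow]
  calc _ = (4 / 3) ^ d * (Real.exp (-(7 / 72 * s)) * (16 / 81 * s)) / r ^ 2 *
        ((√(2 * π) * (2 * r))⁻¹ ^ d * Real.exp (-‖y - p‖ ^ 2 / (2 * (2 * r) ^ 2))) := by ring
    _ ≤ _ := by gcongr

theorem integrable_hx {d : ℕ} {V : Measure (E × E)} (hV : SV0 d V) (p : E) {r : ℝ} (hr : 0 < r)
    (ρ : ℝ) (e : E) : Integrable (fun z : E × E => ⟪e, z.1 - p⟫ ^ 2 / ρ ^ 2 * gk d p r z.1) V := by
  simp only [mul_comm _ (gk d p r _)]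
  refine integrable_gk_mul hV p hr (by fun_prop) ((‖e‖ * (1 + ‖p‖)) ^ 2 / ρ ^ 2) 2 fun z _ => ?_
  rw [abs_of_nonneg (by positivity), ← sq_abs]
  calc _ ≤ (‖e‖ * ((1 + ‖p‖) * (1 + ‖z.1‖))) ^ 2 / ρ ^ 2 := by
        gcongr
        exact (abs_real_inner_le_norm _ _).trans (by gcongr; exact norm_sub_le_mul le_rfl)
    _ = _ := by ring

theorem cacc : StCacc E := by
  intro d
  refine ⟨(4 / 3) ^ d * 3, fun V hV p r e hr he => ?_⟩
  have hρ : 0 < 3 / 2 * r := by positivity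
  have h1 := stat_aff hV p hρ (rk e e) (-(⟪e, p⟫ • e))
  have e1 : ∀ y, rk e e y + -(⟪e, p⟫ • e) = ⟪e, y - p⟫ • e := fun y => by
    rw [rk_apply, inner_sub_right, sub_smul, sub_eq_add_neg]
  simp only [e1] at h1
  simp only [trc_rk, rk_apply, inner_smul_right, real_inner_self_eq_norm_sq, he, one_pow,
    real_inner_comm e] at h1
  simp only [real_inner_comm _ (_ - p)] at h1
  have ha : ∀ z : E × E, ‖z.2‖ ≤ 1 → |⟪e, z.2⟫| ≤ 1 := fun z hz =>
    (abs_real_inner_le_norm _ _).trans (by rw [he, one_mul]; exact hz)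
  have h2 := integrable_gk_mul hV p hρ (f := fun z => 1 - ⟪e, z.2⟫ * ⟪e, z.2⟫ -
    (⟪e, z.1 - p⟫ * ⟪e, z.1 - p⟫ - ⟪z.2, z.1 - p⟫ * (⟪e, z.1 - p⟫ * ⟪e, z.2⟫)) / (3 / 2 * r) ^ 2)
    (by fun_prop) (2 + 2 * (1 + ‖p‖) ^ 2 / (3 / 2 * r) ^ 2) 2 fun z hz => by
      have b0 := ha z hz
      have b1 : |⟪z.2, z.1 - p⟫| ≤ (1 + ‖p‖) * (1 + ‖z.1‖) :=
        (abs_real_inner_le_norm _ _).trans
          ((mul_le_of_le_one_left (norm_nonneg _) hz).trans (norm_sub_le_mul le_rfl))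
      have b2 : |⟪e, z.1 - p⟫| ≤ (1 + ‖p‖) * (1 + ‖z.1‖) :=
        (abs_real_inner_le_norm _ _).trans (by rw [he, one_mul]; exact norm_sub_le_mul le_rfl)
      have b3 : (1 : ℝ) ≤ (1 + ‖z.1‖) ^ 2 := by nlinarith [norm_nonneg z.1]
      refine (abs_sub _ _).trans ?_
      rw [abs_div, abs_of_pos (pow_pos hρ 2)]
      calc _ ≤ (|1| + |⟪e, z.2⟫ * ⟪e, z.2⟫|) + (|⟪e, z.1 - p⟫ * ⟪e, z.1 - p⟫| +
            |⟪z.2, z.1 - p⟫ * (⟪e, z.1 - p⟫ * ⟪e, z.2⟫)|) / (3 / 2 * r) ^ 2 := by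
            gcongr <;> exact abs_sub _ _
        _ ≤ (1 + 1 * 1) * (1 + ‖z.1‖) ^ 2 + (((1 + ‖p‖) * (1 + ‖z.1‖)) * ((1 + ‖p‖) * (1 + ‖z.1‖)) +
            ((1 + ‖p‖) * (1 + ‖z.1‖)) * ((1 + ‖p‖) * (1 + ‖z.1‖) * 1)) / (3 / 2 * r) ^ 2 := by
            simp only [abs_mul, abs_one]
            gcongr
            exact le_trans (by gcongr) (le_mul_of_one_le_right (by norm_num) b3)
        _ = _ := by ring
  have h3 := integrable_hx hV p (r := 2 * r) (by positivity) r e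
  have h5 := integral_add (h3.const_mul ((4 / 3) ^ d * 3)) (h2.const_mul 2)
  rw [integral_const_mul, integral_const_mul, h1, mul_zero, add_zero] at h5
  rw [hx, integral_fst V (by have := continuous_gk d p (2 * r); fun_prop), ← h5]
  refine integral_mono_of_nonneg ?_ ((h3.const_mul _).add (h2.const_mul _)) ?_
  · filter_upwards [SV0.le_one hV] with z hz
    have := gk_pos d p hρ z.1
    have h4 : ⟪z.2, e⟫ ^ 2 ≤ 1 := by
      rw [real_inner_comm, sq_le_one_iff_abs_le_one]; exact ha z hz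
    exact mul_nonneg (by linarith) this.le
  · filter_upwards [hV.unit] with z hz
    have g0 := gk_pos d p hρ z.1
    have g1 := gk_cacc d p hr z.1
    rw [real_inner_comm e z.2]
    have n2 : ‖e - ⟪e, z.2⟫ • z.2‖ ^ 2 = 1 - ⟪e, z.2⟫ ^ 2 := by
      rw [@norm_sub_sq_real, inner_smul_right, norm_smul, he, hz, Real.norm_eq_abs, mul_one, sq_abs]
      ring
    have n3 : |⟪e, z.1 - p⟫ - ⟪e, z.2⟫ * ⟪z.2, z.1 - p⟫| ≤ ‖e - ⟪e, z.2⟫ • z.2‖ * ‖z.1 - p‖ := by
      refine le_trans (le_of_eq ?_) (abs_real_inner_le_norm _ _)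
      rw [inner_sub_left e, inner_smul_left]; rfl
    generalize ‖e - ⟪e, z.2⟫ • z.2‖ = n at n2 n3
    generalize ⟪e, z.2⟫ = a at *
    generalize ⟪e, z.1 - p⟫ = h at *
    generalize ⟪z.2, z.1 - p⟫ = k at *
    generalize ‖z.1 - p‖ = w at *
    generalize gk d p (3 / 2 * r) z.1 = G at *
    generalize gk d p (2 * r) z.1 = G' at *
    generalize 3 / 2 * r = ρ at *
    have n4 : 2 * (h / ρ ^ 2 * (h - a * k)) ≤ n ^ 2 + (h / ρ ^ 2) ^ 2 * w ^ 2 := by
      have := le_abs_self (h / ρ ^ 2 * (h - a * k))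
      rw [abs_mul] at this
      have h5 := mul_le_mul_of_nonneg_left n3 (abs_nonneg (h / ρ ^ 2))
      rw [← sq_abs (h / ρ ^ 2)]
      nlinarith [sq_nonneg (n - |h / ρ ^ 2| * w)]
    have n5 := mul_le_mul_of_nonneg_left n4 g0.le
    have n6 := mul_le_mul_of_nonneg_left g1 (sq_nonneg h)
    have e2 : G * ((h / ρ ^ 2) ^ 2 * w ^ 2) = h ^ 2 * (G * (w ^ 2 / ρ ^ 4)) := by ring
    rw [n2, mul_add, e2] at n5
    have e3 : (4 / 3) ^ d * 3 * (h ^ 2 / r ^ 2 * G') = h ^ 2 * ((4 / 3) ^ d * 3 / r ^ 2 * G') := by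
      ring
    have e4 : (h * h - k * (h * a)) / ρ ^ 2 = h / ρ ^ 2 * (h - a * k) := by ring
    rw [e3, e4]
    nlinarith

end Crest.Agent.R246.C1
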